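import Vale.Agent.P034.Params

/-!
# P034: the integral and fractional expectation thresholds differ by at most a factor
`O(log log log |X|)`
-/

namespace Vale.Agent.Results.P034.LogLogLog

open Vale.Agent.P034

theorem result : ∃ C : ℝ, 0 < C ∧ ∀ (X : Type) [Fintype X] [Nonempty X] (F : Set (Finset X)),
    F.Nonempty → IsUpperSet F → ∅ ∉ F →
    qf F ≤ C * max 1 (Real.log (Real.log (Real.log (Fintype.card X)))) * q F := by
  refine ⟨6144 * 64 * 11, by norm_num, ?_⟩
  intro X _ _ F _ _ _
  exact qf_le F

end Vale.Agent.Results.P034.LogLogLog
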