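import Vale.Agent.P034.Tal.Final

/-!
# P034: the integral and fractional expectation thresholds differ by at most a constant factor
-/

namespace Vale.Agent.Results.P034.Talagrand

open Vale.Agent.P034

theorem result : ∃ K : ℝ, 0 < K ∧ ∀ (X : Type) [Fintype X] [Nonempty X] (F : Set (Finset X)),
    F.Nonempty → IsUpperSet F → ∅ ∉ F → qf F ≤ K * q F := by
  refine ⟨2 ^ 33, by norm_num, ?_⟩
  intro X _ _ F _ _ _
  classical
  exact qf_le_const F

end Vale.Agent.Results.P034.Talagrand
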